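import Vale.Agent.P218.CY.H624.G

/-! Row T of the cylinder: the tube and the bounds of the derivatives. -/

open MeasureTheory Set Filter Topology
open scoped ENNReal NNReal ContDiff RealInnerProductSpace

namespace Vale.Agent.P218.CY.H624

open Vale.Agent.P218.CY Vale.Agent.P218.H63

theorem norm_ee (i : Fin 3) : ‖ee i‖ = 1 := by simp [ee]

theorem norm_pr_le (x : E3) : ‖pr x‖ ≤ ‖x‖ := by
  have h : ‖pr x‖ ^ 2 ≤ ‖x‖ ^ 2 := by
    rw [norm_pr_sq, ← real_inner_self_eq_norm_sq, inner_eq, r2]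
    nlinarith [mul_self_nonneg (x 2)]
  exact (sq_le_sq₀ (norm_nonneg _) (norm_nonneg _)).1 h

theorem lap_cw {x : E3} (h : 1 / 2 < r2 x) : lap cw x = ‖pr x‖⁻¹ := by
  have hp := norm_pr_pos h
  unfold lap
  rw [fderiv_gradient h]
  have e : ((‖pr x‖⁻¹ • prL - (‖pr x‖⁻¹ ^ 3) • (innerSL ℝ (pr x)).smulRight (pr x) :
      E3 →L[ℝ] E3) : E3 →ₗ[ℝ] E3)
      = ‖pr x‖⁻¹ • (LinearMap.id - ((EuclideanSpace.proj (2 : Fin 3) : E3 →L[ℝ] ℝ) :
          E3 →ₗ[ℝ] ℝ).smulRight (ee 2))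
        - (‖pr x‖⁻¹ ^ 3) • ((innerSL ℝ (pr x) : E3 →L[ℝ] ℝ) : E3 →ₗ[ℝ] ℝ).smulRight (pr x) := by
    ext v i
    rfl
  rw [e, map_sub, map_smul, map_smul, map_sub, LinearMap.trace_id, LinearMap.trace_smulRight,
    LinearMap.trace_smulRight]
  have h3 : (Module.finrank ℝ E3 : ℝ) = 3 := by simp
  have h1 : ((EuclideanSpace.proj (2 : Fin 3) : E3 →L[ℝ] ℝ) : E3 →ₗ[ℝ] ℝ) (ee 2) = 1 := by
    simp [ee]
  have h2 : ((innerSL ℝ (pr x) : E3 →L[ℝ] ℝ) : E3 →ₗ[ℝ] ℝ) (pr x) = ‖pr x‖ ^ 2 := by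
    simp
  rw [h3, h1, h2]
  simp only [smul_eq_mul]
  field_simp
  norm_num

/-- derivatives of a function invariant under a translation -/
theorem fderiv_inv {F : Type*} [NormedAddCommGroup F] [NormedSpace ℝ F] {f : E3 → F} {a : E3}
    (hf : ∀ x, f (x + a) = f x) (x : E3) : fderiv ℝ f (x + a) = fderiv ℝ f x := by
  have h := fderiv_comp_add_right (𝕜 := ℝ) (f := f) (x := x) a
  rw [← h]
  congr 1
  funext y
  exact hf y

theorem gradient_inv {f : E3 → ℝ} {a : E3} (hf : ∀ x, f (x + a) = f x) (x : E3) :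
    gradient f (x + a) = gradient f x := by
  unfold gradient
  rw [fderiv_inv hf]

theorem cw_inv (t : ℝ) (x : E3) : cw (x + t • ee 2) = cw x := by
  have : r2 (x + t • ee 2) = r2 x := by
    unfold r2
    simp [ee]
  rw [cw, cw, this]

theorem gradient_smooth : ContDiff ℝ ∞ (gradient cw) := by
  have h : ContDiff ℝ ∞ (fderiv ℝ cw) := cw_smooth.fderiv_right (by simp)
  exact (InnerProductSpace.toDual ℝ E3).symm.contDiff.comp h

theorem third_continuous : Continuous fun x => ‖fderiv ℝ (fderiv ℝ (gradient cw)) x‖ := by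
  have h : ContDiff ℝ ∞ (fderiv ℝ (gradient cw)) := gradient_smooth.fderiv_right (by simp)
  exact (h.continuous_fderiv (by simp)).norm

theorem third_inv (x : E3) :
    fderiv ℝ (fderiv ℝ (gradient cw)) (pr x) = fderiv ℝ (fderiv ℝ (gradient cw)) x := by
  have h := fderiv_inv (f := fderiv ℝ (gradient cw)) (a := x 2 • ee 2)
    (fderiv_inv (gradient_inv (cw_inv (x 2)))) (pr x)
  have e : pr x + x 2 • ee 2 = x := by unfold pr; abel
  rw [e] at h
  exact h.symm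

/-- (R1c) -/
theorem rowT : RowT := by
  obtain ⟨C, hC'⟩ := (isCompact_closedBall (0 : E3) 2).exists_bound_of_continuousOn
    third_continuous.continuousOn
  have hC : ∀ x ∈ Metric.closedBall (0 : E3) 2,
      ‖fderiv ℝ (fderiv ℝ (gradient cw)) x‖ ≤ C := fun x hx =>
    (le_abs_self _).trans (hC' x hx)
  refine ⟨max C 4, ⟨by norm_num, cw_smooth.of_le (by norm_cast), mem_cyl_iff,
    fun x hx => ?_, fun x hx => ?_, fun x hx => ?_⟩, fun x hx => ?_⟩
  · have h := half_lt hx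
    rw [gradient_cw h, norm_smul, norm_inv, norm_norm, inv_mul_cancel₀ (norm_pr_pos h).ne']
  · have h := half_lt hx
    have hp := norm_pr_pos h
    have hp2 : 1 / 2 ≤ ‖pr x‖ := by
      have : (1 / 2 : ℝ) ^ 2 ≤ ‖pr x‖ ^ 2 := by rw [norm_pr_sq]; norm_num; linarith
      exact (sq_le_sq₀ (by norm_num) hp.le).1 this
    have hi : ‖pr x‖⁻¹ ≤ 2 := by
      rw [inv_le_comm₀ hp (by norm_num)]; norm_num; linarith
    refine le_trans ?_ (le_max_right C 4)
    refine ContinuousLinearMap.opNorm_le_bound _ (by norm_num) fun v => ?_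
    rw [(rowG x h).2 v, ← norm_pr]
    calc ‖‖pr x‖⁻¹ • pr v - (‖pr x‖⁻¹ ^ 3 * inner ℝ (pr x) v) • pr x‖
        ≤ ‖‖pr x‖⁻¹ • pr v‖ + ‖(‖pr x‖⁻¹ ^ 3 * inner ℝ (pr x) v) • pr x‖ := norm_sub_le _ _
      _ ≤ ‖pr x‖⁻¹ * ‖v‖ + ‖pr x‖⁻¹ * ‖v‖ := by
          refine add_le_add ?_ ?_
          · rw [norm_smul, norm_inv, norm_norm]
            exact mul_le_mul_of_nonneg_left (norm_pr_le v) (inv_nonneg.2 hp.le)
          · rw [norm_smul, norm_mul, norm_pow, norm_inv, norm_norm]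
            have := norm_inner_le_norm (𝕜 := ℝ) (pr x) v
            calc ‖pr x‖⁻¹ ^ 3 * ‖(inner ℝ (pr x) v : ℝ)‖ * ‖pr x‖
                ≤ ‖pr x‖⁻¹ ^ 3 * (‖pr x‖ * ‖v‖) * ‖pr x‖ := by gcongr
              _ = ‖pr x‖⁻¹ * ‖v‖ := by field_simp
      _ ≤ 4 * ‖v‖ := by nlinarith [norm_nonneg v]
  · have h2 : r2 x = 2 := hx
    have h : 1 / 2 < r2 x := by rw [h2]; norm_num
    have hp := norm_pr_pos h
    have hs : ‖pr x‖ ^ 2 = 2 := by rw [norm_pr_sq, h2]
    rw [lap_cw h, gradient_cw h, real_inner_smul_right, real_inner_comm, inner_pr]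
    have e : x 0 * x 0 + x 1 * x 1 = 2 := by rw [← h2, r2]; ring
    rw [e]
    ring
  · refine le_trans ?_ (le_max_left C 4)
    rw [← third_inv]
    refine hC (pr x) ?_
    rw [mem_closedBall_zero_iff]
    have : ‖pr x‖ ^ 2 ≤ 2 ^ 2 := by rw [norm_pr_sq]; norm_num; exact (lt_four hx).le
    exact (sq_le_sq₀ (norm_nonneg _) (by norm_num)).1 this

end Vale.Agent.P218.CY.H624
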