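import Vale.Agent.P218.CY.H624.W

/-! Row G of the cylinder: gradient and Hessian of the signed distance. -/

open MeasureTheory Set Filter Topology
open scoped ENNReal NNReal ContDiff RealInnerProductSpace

namespace Vale.Agent.P218.CY.H624

open Vale.Agent.P218.CY

/-- the projection as a linear map -/
noncomputable def prL : E3 →L[ℝ] E3 :=
  ContinuousLinearMap.id ℝ E3 - (EuclideanSpace.proj (2 : Fin 3) : E3 →L[ℝ] ℝ).smulRight (ee 2)

theorem prL_apply (x : E3) : prL x = pr x := rfl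

theorem pr_zero (x : E3) : pr x 0 = x 0 := by simp [pr, ee]
theorem pr_one (x : E3) : pr x 1 = x 1 := by simp [pr, ee]
theorem pr_two (x : E3) : pr x 2 = 0 := by simp [pr, ee]

theorem inner_eq (x y : E3) : ⟪x, y⟫ = x 0 * y 0 + x 1 * y 1 + x 2 * y 2 := by
  rw [PiLp.inner_apply, Fin.sum_univ_three]
  simp only [RCLike.inner_apply, conj_trivial]
  ring

theorem inner_pr (x y : E3) : ⟪pr x, y⟫ = x 0 * y 0 + x 1 * y 1 := by
  rw [inner_eq, pr_zero, pr_one, pr_two]; ring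

theorem inner_pr_pr (x y : E3) : ⟪pr x, pr y⟫ = ⟪pr x, y⟫ := by
  rw [inner_pr, inner_pr, pr_zero, pr_one]

theorem norm_pr_sq (x : E3) : ‖pr x‖ ^ 2 = r2 x := by
  rw [← real_inner_self_eq_norm_sq, inner_pr_pr, inner_pr, r2]; ring

theorem norm_pr (x : E3) : ‖pr x‖ = √(r2 x) := by
  rw [← norm_pr_sq, Real.sqrt_sq (norm_nonneg _)]

theorem norm_pr_pos {x : E3} (h : 1 / 2 < r2 x) : 0 < ‖pr x‖ := by
  rw [norm_pr]; exact Real.sqrt_pos.2 (by linarith)

theorem eventually_gt {x : E3} (h : 1 / 2 < r2 x) : ∀ᶠ y in 𝓝 x, 1 / 2 < r2 y :=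
  r2_smooth.continuous.continuousAt.eventually (lt_mem_nhds h)

theorem cw_eventually {x : E3} (h : 1 / 2 < r2 x) : cw =ᶠ[𝓝 x] fun y => ‖prL y‖ - √2 := by
  filter_upwards [eventually_gt h] with y hy
  rw [cw_of_gt hy, prL_apply, norm_pr]

theorem hasFDerivAt_norm_pr {x : E3} (h : 1 / 2 < r2 x) :
    HasFDerivAt (fun y => ‖prL y‖) (‖pr x‖⁻¹ • innerSL ℝ (pr x)) x := by
  have hp := norm_pr_pos h
  have h1 : HasFDerivAt (fun y : E3 => ‖prL y‖ ^ 2) (2 • (innerSL ℝ (prL x)).comp prL) x :=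
    prL.hasFDerivAt.norm_sq
  have h2 := h1.sqrt (by rw [prL_apply]; positivity)
  have h3 : (fun y : E3 => √(‖prL y‖ ^ 2)) = fun y => ‖prL y‖ := by
    funext y; exact Real.sqrt_sq (norm_nonneg _)
  rw [h3] at h2
  refine h2.congr_fderiv (ContinuousLinearMap.ext fun v => ?_)
  simp only [_root_.smul_apply, innerSL_apply_apply, smul_eq_mul,
    ContinuousLinearMap.comp_apply, nsmul_eq_mul, prL_apply, inner_pr_pr,
    Real.sqrt_sq (norm_nonneg (pr x))]
  have := hp.ne'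
  push_cast
  field_simp

theorem hasGradientAt_cw {x : E3} (h : 1 / 2 < r2 x) :
    HasGradientAt cw (‖pr x‖⁻¹ • pr x) x := by
  rw [hasGradientAt_iff_hasFDerivAt]
  have h1 := ((hasFDerivAt_norm_pr h).sub_const (√2)).congr_of_eventuallyEq (cw_eventually h)
  refine h1.congr_fderiv (ContinuousLinearMap.ext fun v => ?_)
  simp

theorem gradient_cw {x : E3} (h : 1 / 2 < r2 x) : gradient cw x = ‖pr x‖⁻¹ • pr x :=
  (hasGradientAt_cw h).gradient

theorem gradient_cw_eventually {x : E3} (h : 1 / 2 < r2 x) :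
    gradient cw =ᶠ[𝓝 x] fun y => ‖prL y‖⁻¹ • prL y := by
  filter_upwards [eventually_gt h] with y hy
  exact gradient_cw hy

theorem hasFDerivAt_gradient {x : E3} (h : 1 / 2 < r2 x) :
    HasFDerivAt (gradient cw)
      (‖pr x‖⁻¹ • prL - (‖pr x‖⁻¹ ^ 3) • (innerSL ℝ (pr x)).smulRight (pr x)) x := by
  have hp := norm_pr_pos h
  have h1 : HasFDerivAt (fun y : E3 => ‖prL y‖⁻¹ • prL y)
      (‖prL x‖⁻¹ • prL
        + ((-(‖prL x‖ ^ 2)⁻¹) • (‖pr x‖⁻¹ • innerSL ℝ (pr x))).smulRight (prL x)) x :=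
    HasFDerivAt.smul ((hasDerivAt_inv (by rw [prL_apply]; exact hp.ne')).comp_hasFDerivAt x
      (hasFDerivAt_norm_pr h)) prL.hasFDerivAt
  have h2 := h1.congr_of_eventuallyEq (gradient_cw_eventually h)
  refine h2.congr_fderiv (ContinuousLinearMap.ext fun v => ?_)
  simp only [_root_.add_apply, _root_.sub_apply, _root_.smul_apply,
    ContinuousLinearMap.smulRight_apply, innerSL_apply_apply, prL_apply, smul_eq_mul, smul_smul]
  have hne := hp.ne'
  have e : -(‖pr x‖ ^ 2)⁻¹ * ‖pr x‖⁻¹ * ⟪pr x, v⟫ = -(‖pr x‖⁻¹ ^ 3 * ⟪pr x, v⟫) := by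
    field_simp
  rw [e, neg_smul, sub_eq_add_neg]

theorem fderiv_gradient {x : E3} (h : 1 / 2 < r2 x) :
    fderiv ℝ (gradient cw) x
      = ‖pr x‖⁻¹ • prL - (‖pr x‖⁻¹ ^ 3) • (innerSL ℝ (pr x)).smulRight (pr x) :=
  (hasFDerivAt_gradient h).fderiv

/-- (R1b) -/
theorem rowG : RowG := by
  intro x h
  refine ⟨by rw [gradient_cw h, norm_pr], fun v => ?_⟩
  rw [fderiv_gradient h, _root_.sub_apply, _root_.smul_apply, _root_.smul_apply,
    ContinuousLinearMap.smulRight_apply, innerSL_apply_apply, smul_smul, prL_apply, norm_pr]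

end Vale.Agent.P218.CY.H624
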