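import Vale.Agent.P218.CY.Defs

/-! Row W of the cylinder: the signed distance function. -/

open MeasureTheory Set Filter Topology
open scoped ENNReal NNReal ContDiff

namespace Vale.Agent.P218.CY.H624

open Vale.Agent.P218.CY

theorem sqrt2_gt : (1.4 : ℝ) < √2 := by
  rw [Real.lt_sqrt (by norm_num)]; norm_num

theorem sqrt2_lt : √2 < (1.45 : ℝ) := by
  rw [Real.sqrt_lt' (by norm_num)]; norm_num

theorem phi_of_ge {s : ℝ} (h : 1 / 2 ≤ s) : phi s = √s - √2 := by
  unfold phi
  rw [Real.smoothTransition.one_of_one_le (by linarith)]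
  ring

theorem phi_of_le {s : ℝ} (h : s ≤ 1 / 4) : phi s = -1 := by
  unfold phi
  rw [Real.smoothTransition.zero_of_nonpos (by linarith)]
  ring

theorem phi_le {s : ℝ} (h : s ≤ 1 / 2) : phi s ≤ -(1 / 2) := by
  unfold phi
  have h1 := Real.smoothTransition.le_one (4 * s - 1)
  have h0 := Real.smoothTransition.nonneg (4 * s - 1)
  have hs : √s < 0.8 := by
    rw [Real.sqrt_lt' (by norm_num)]; norm_num; linarith
  have h2 := sqrt2_gt
  nlinarith

theorem phi_smooth : ContDiff ℝ ∞ phi := by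
  rw [contDiff_iff_contDiffAt]
  intro s
  rcases lt_or_ge s (1 / 4) with h | h
  · have : phi =ᶠ[𝓝 s] fun _ => (-1 : ℝ) := by
      filter_upwards [gt_mem_nhds h] with t ht
      exact phi_of_le ht.le
    exact contDiffAt_const.congr_of_eventuallyEq this
  · have h1 : ContDiffAt ℝ ∞ (fun t : ℝ => Real.smoothTransition (4 * t - 1)) s :=
      (Real.smoothTransition.contDiff.comp
        ((contDiff_const.mul contDiff_id).sub contDiff_const)).contDiffAt
    have h2 : ContDiffAt ℝ ∞ (fun t : ℝ => √t) s := Real.contDiffAt_sqrt (by linarith)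
    exact (h1.mul (h2.sub contDiffAt_const)).sub (contDiffAt_const.sub h1)

theorem r2_smooth : ContDiff ℝ ∞ r2 := by
  unfold r2
  fun_prop

theorem r2_nonneg (x : E3) : 0 ≤ r2 x := by unfold r2; positivity

theorem cw_smooth : ContDiff ℝ ∞ cw := phi_smooth.comp r2_smooth

theorem cw_of_gt {x : E3} (h : 1 / 2 < r2 x) : cw x = √(r2 x) - √2 := phi_of_ge h.le

theorem half_lt {x : E3} (h : |cw x| < 1 / 2) : 1 / 2 < r2 x := by
  by_contra hc
  push Not at hc
  have h1 : cw x ≤ -(1 / 2) := phi_le hc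
  have h2 := (abs_lt.1 h).1
  linarith

theorem lt_four {x : E3} (h : |cw x| < 1 / 2) : r2 x < 4 := by
  have h1 := half_lt h
  rw [cw_of_gt h1] at h
  have h3 := (abs_lt.1 h).2
  have h2 := sqrt2_lt
  have h4 : √(r2 x) < 2 := by linarith
  rw [Real.sqrt_lt' (by norm_num)] at h4
  linarith

theorem mem_cyl_iff (x : E3) : x ∈ cyl ↔ cw x = 0 := by
  constructor
  · intro h
    have h' : r2 x = 2 := h
    rw [cw_of_gt (by rw [h']; norm_num), h']; ring
  · intro h
    have h1 : 1 / 2 < r2 x := half_lt (by rw [h]; norm_num)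
    rw [cw_of_gt h1] at h
    have h2 : √(r2 x) = √2 := by linarith
    exact (Real.sqrt_inj (r2_nonneg x) (by norm_num)).1 h2

/-- (R1a) -/
theorem rowW : RowW :=
  ⟨cw_smooth, mem_cyl_iff, fun _ h => ⟨half_lt h, lt_four h⟩, fun _ h => cw_of_gt h⟩

end Vale.Agent.P218.CY.H624
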